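import Vale.Agent.P032.S5.H46.Win

/-!
# P032: two antipodal triples with one common colour at a point with six colours

`g33` : if the palettes at two antipodal points of `S(z)` are triples with exactly one common colour
`s`, then near these points the two antipodal letters `triple \ {s}` do not occur together.
No assumption on the order or on the isolation of the changes is made.
-/

open Set Filter Topology Metric

noncomputable section

namespace Vale.Agent.P032.S5.H46

open Vale.Agent.P032.Six Vale.Agent.P032.S5.H767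

/-- an open set, a point of it and a point outside: an end of a component between them -/
theorem exists_end {O : Set ℝ} (hO : IsOpen O) {u v : ℝ} (hu : u ∉ O) (hv : v ∈ O) :
    ∃ p, ∃ τ : Bool, p ∉ O ∧ |p - u| ≤ |v - u| ∧
      ∀ᶠ t : ℝ in 𝓝[>] 0, p + (if τ then 1 else -1) * t ∈ O := by
  rcases lt_trichotomy v u with h1 | h1 | h1
  · -- first exit to the right of `v`
    set S : Set ℝ := Oᶜ ∩ Icc v u with hS
    have hSc : IsClosed S := hO.isClosed_compl.inter isClosed_Icc
    have hSn : S.Nonempty := ⟨u, hu, h1.le, le_rfl⟩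
    have hSb : BddBelow S := ⟨v, fun x hx => hx.2.1⟩
    have hp : sInf S ∈ S := hSc.csInf_mem hSn hSb
    set p := sInf S with hpd
    have hvp : v < p := lt_of_le_of_ne hp.2.1 fun h2 => hp.1 (h2 ▸ hv)
    refine ⟨p, false, hp.1, ?_, ?_⟩
    · rw [abs_of_nonpos (by linarith [hp.2.2]), abs_of_neg (by linarith)]
      linarith
    · filter_upwards [Ioo_mem_nhdsGT (show (0 : ℝ) < p - v by linarith)] with t ht
      by_contra hcon
      have h3 : p - t ∈ S := by
        refine ⟨?_, ?_, ?_⟩
        · have e : p + (if false = true then (1 : ℝ) else -1) * t = p - t := by simp; ring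
          rw [e] at hcon; exact hcon
        · linarith [ht.2]
        · linarith [ht.1, hp.2.2]
      have := csInf_le hSb h3
      linarith [ht.1]
  · exact absurd (h1 ▸ hv) hu
  · set S : Set ℝ := Oᶜ ∩ Icc u v with hS
    have hSc : IsClosed S := hO.isClosed_compl.inter isClosed_Icc
    have hSn : S.Nonempty := ⟨u, hu, le_rfl, h1.le⟩
    have hSb : BddAbove S := ⟨v, fun x hx => hx.2.2⟩
    have hp : sSup S ∈ S := hSc.csSup_mem hSn hSb
    set p := sSup S with hpd
    have hvp : p < v := lt_of_le_of_ne hp.2.2 fun h2 => hp.1 (h2 ▸ hv)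
    refine ⟨p, true, hp.1, ?_, ?_⟩
    · rw [abs_of_nonneg (by linarith [hp.2.1]), abs_of_pos (by linarith)]
      linarith
    · filter_upwards [Ioo_mem_nhdsGT (show (0 : ℝ) < v - p by linarith)] with t ht
      by_contra hcon
      have h3 : p + t ∈ S := by
        refine ⟨?_, ?_, ?_⟩
        · have e : p + (if true = true then (1 : ℝ) else -1) * t = p + t := by simp
          rw [e] at hcon; exact hcon
        · linarith [ht.1, hp.2.1]
        · linarith [ht.2]
      have := le_csSup hSb h3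
      linarith [ht.1]

/-- the half branch of the circle of `z` in angles -/
theorem hb_pt (z : ℂ) (a o t : ℝ) : hb z (pt z a) o t = pt z (a + o * (t * (3 / Real.pi))) := by
  have hpi := Real.pi_pos
  unfold hb pt
  have e3 : (a + o * (t * (3 / Real.pi))) * (Real.pi / 3) = a * (Real.pi / 3) + o * t := by
    field_simp
  rw [e3, H767.cis_add]; ring

theorem tendsto_scale : Tendsto (fun t : ℝ => t * (3 / Real.pi)) (𝓝[>] 0) (𝓝[>] 0) := by
  have hpi := Real.pi_pos
  refine tendsto_nhdsWithin_iff.2 ⟨?_, ?_⟩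
  · have hc : Continuous fun t : ℝ => t * (3 / Real.pi) := by fun_prop
    have := hc.tendsto 0
    rw [zero_mul] at this
    exact this.mono_left nhdsWithin_le_nhds
  · filter_upwards [self_mem_nhdsWithin] with t ht
    have : (0 : ℝ) < t := ht
    show (0 : ℝ) < t * (3 / Real.pi)
    positivity

/-- `pt z` as a map to the circle -/
theorem tendsto_pt (z : ℂ) (v : ℝ) : Tendsto (pt z) (𝓝 v) (𝓝[sphere z 1] (pt z v)) :=
  tendsto_nhdsWithin_iff.2 ⟨(continuous_pt z).tendsto v, Eventually.of_forall fun t => dist_pt z t⟩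

variable {U : Fin 6 → Set ℂ} {T : ℂ → Set (Fin 6)}

/-- the set of angles with two given exact letters is open -/
theorem isOpen_two (h : Irr U T) {z : ℂ} {A B : Set (Fin 6)} (hA : A.ncard = 2) (hB : B.ncard = 2)
    (hAz : A ⊆ T z) (hBz : B ⊆ T z) : IsOpen {v : ℝ | T (pt z v) = A ∧ T (pt z (v + 3)) = B} := by
  rw [isOpen_iff_mem_nhds]
  rintro v ⟨h1, h2⟩
  have e1 := (tendsto_pt z v).eventually (h.pair_open hA hAz h1.subset)
  have hc : Tendsto (fun t : ℝ => t + 3) (𝓝 v) (𝓝 (v + 3)) :=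
    (continuous_id.add continuous_const).tendsto v
  have e2 := ((tendsto_pt z (v + 3)).comp hc).eventually (h.pair_open hB hBz h2.subset)
  filter_upwards [e1, e2] with t h3 h4
  exact ⟨h3, h4⟩

/-- **G33.** -/
theorem g33 (h : Irr U T) {z : ℂ} (h6 : (T z).ncard = 6)
    (hact : ∀ i, ∃ q, dist q z = 1 ∧ i ∈ T q) {u : ℝ} {s : Fin 6}
    (hs : T (pt z u) ∩ T (pt z (u + 3)) = {s}) (h3 : (T (pt z u)).ncard = 3)
    (h3' : (T (pt z (u + 3))).ncard = 3) :
    ∀ᶠ v in 𝓝 u, ¬ (T (pt z v) = T (pt z u) \ {s} ∧ T (pt z (v + 3)) = T (pt z (u + 3)) \ {s}) := by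
  have huniv : T z = univ := by
    refine Set.eq_of_subset_of_ncard_le (subset_univ _)
      (by rw [h6, Set.ncard_univ, Nat.card_eq_fintype_card, Fintype.card_fin]) (Set.toFinite _)
  set A3 := T (pt z u) with hA3
  set B3 := T (pt z (u + 3)) with hB3
  have hsA : s ∈ A3 := (hs ▸ mem_singleton s : s ∈ A3 ∩ B3).1
  have hsB : s ∈ B3 := (hs ▸ mem_singleton s : s ∈ A3 ∩ B3).2
  have hA2 : (A3 \ {s}).ncard = 2 := by
    rw [Set.ncard_sdiff_singleton_of_mem hsA, h3]
  have hB2 : (B3 \ {s}).ncard = 2 := by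
    rw [Set.ncard_sdiff_singleton_of_mem hsB, h3']
  have hAz : A3 \ {s} ⊆ T z := by rw [huniv]; exact subset_univ _
  have hBz : B3 \ {s} ⊆ T z := by rw [huniv]; exact subset_univ _
  set O : Set ℝ := {v : ℝ | T (pt z v) = A3 \ {s} ∧ T (pt z (v + 3)) = B3 \ {s}} with hO
  have hOo : IsOpen O := isOpen_two h hA2 hB2 hAz hBz
  have huO : u ∉ O := by
    intro hu
    have h1 : A3 = A3 \ {s} := hu.1
    rw [h1] at hsA
    exact hsA.2 rfl
  -- the missing colour
  have hcard : (A3 ∪ B3).ncard = 5 := by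
    have := Set.ncard_union_add_ncard_inter A3 B3 (Set.toFinite _) (Set.toFinite _)
    rw [hs, Set.ncard_singleton, h3, h3'] at this
    omega
  obtain ⟨x, hx⟩ : ∃ x, (A3 ∪ B3)ᶜ = {x} := by
    rw [← Set.ncard_eq_one, Set.ncard_compl _ (Set.toFinite _), hcard, Nat.card_eq_fintype_card,
      Fintype.card_fin]
  have hxA : x ∉ A3 := fun h1 => (hx.symm ▸ mem_singleton x : x ∈ (A3 ∪ B3)ᶜ) (Or.inl h1)
  have hxB : x ∉ B3 := fun h1 => (hx.symm ▸ mem_singleton x : x ∈ (A3 ∪ B3)ᶜ) (Or.inr h1)
  have hK1 : ∀ i ∈ T z, i ∈ A3 ∨ i ∈ B3 \ {s} ∨ i = x := by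
    intro i _
    by_cases h1 : i ∈ A3
    · exact Or.inl h1
    by_cases h2 : i ∈ B3
    · exact Or.inr (Or.inl ⟨h2, fun h4 => h1 (h4 ▸ hsA)⟩)
    · right; right
      have : i ∈ (A3 ∪ B3)ᶜ := fun h4 => h4.elim h1 h2
      rw [hx] at this; exact this
  have hK2 : ∀ i ∈ T z, i ∈ B3 ∨ i ∈ A3 \ {s} ∨ i = x := by
    intro i _
    by_cases h1 : i ∈ B3
    · exact Or.inl h1
    by_cases h2 : i ∈ A3
    · exact Or.inr (Or.inl ⟨h2, fun h4 => h1 (h4 ▸ hsB)⟩)
    · right; right
      have : i ∈ (A3 ∪ B3)ᶜ := fun h4 => h4.elim h2 h1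
      rw [hx] at this; exact this
  -- a neighbourhood with smaller palettes
  have hc3 : Tendsto (fun t : ℝ => t + 3) (𝓝 u) (𝓝 (u + 3)) :=
    (continuous_id.add continuous_const).tendsto u
  have hn1 : ∀ᶠ v in 𝓝 u, T (pt z v) ⊆ A3 :=
    ((continuous_pt z).tendsto u).eventually (h.nhd (pt z u))
  have hn2 : ∀ᶠ v in 𝓝 u, T (pt z (v + 3)) ⊆ B3 :=
    (((continuous_pt z).tendsto (u + 3)).comp hc3).eventually (h.nhd (pt z (u + 3)))
  obtain ⟨ε, hε, hball⟩ := Metric.eventually_nhds_iff.1 (hn1.and hn2)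
  filter_upwards [Metric.ball_mem_nhds u hε] with v hv hvO
  obtain ⟨p, τ, hpO, hpu, hpτ⟩ := exists_end hOo huO (show v ∈ O from hvO)
  have hv' : |v - u| < ε := by
    have := hv
    rwa [Metric.mem_ball, Real.dist_eq] at this
  obtain ⟨hp1, hp2⟩ := hball (y := p) (by rw [Real.dist_eq]; exact lt_of_le_of_lt hpu hv')
  set o : ℝ := if τ then 1 else -1 with ho
  have ho' : o = 1 ∨ o = -1 := by
    rw [ho]; cases τ
    · exact Or.inr rfl
    · exact Or.inl rfl
  -- limits from the side of `O`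
  have hclos : p ∈ closure O := by
    have h1 : Tendsto (fun t : ℝ => p + o * t) (𝓝[>] 0) (𝓝 p) := by
      have hc : Continuous fun t : ℝ => p + o * t := by fun_prop
      have := hc.tendsto 0
      rw [mul_zero, add_zero] at this
      exact this.mono_left nhdsWithin_le_nhds
    exact mem_closure_of_tendsto h1 hpτ
  have hsub1 : A3 \ {s} ⊆ T (pt z p) := by
    intro i hi
    have h1 : closure O ⊆ {v | i ∈ T (pt z v)} := by
      refine closure_minimal (fun v hv => ?_) ((h.closed i).preimage (continuous_pt z))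
      show i ∈ T (pt z v)
      rw [hv.1]; exact hi
    exact h1 hclos
  have hsub2 : B3 \ {s} ⊆ T (pt z (p + 3)) := by
    intro i hi
    have h1 : closure O ⊆ {v | i ∈ T (pt z (v + 3))} := by
      refine closure_minimal (fun v hv => ?_)
        ((h.closed i).preimage ((continuous_pt z).comp (continuous_id.add continuous_const)))
      show i ∈ T (pt z (v + 3))
      rw [hv.2]; exact hi
    exact h1 hclos
  have hdich : ∀ {X Y : Set (Fin 6)}, X \ {s} ⊆ Y → Y ⊆ X → s ∈ X → Y = X \ {s} ∨ Y = X := by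
    intro X Y h1 h2 h4
    by_cases h5 : s ∈ Y
    · right
      refine subset_antisymm h2 fun i hi => ?_
      by_cases h6 : i = s
      · rw [h6]; exact h5
      · exact h1 ⟨hi, h6⟩
    · left
      exact subset_antisymm (fun i hi => ⟨h2 hi, fun h6 => h5 (h6 ▸ hi)⟩) h1
  have hy : dist (pt z p) z = 1 := dist_pt _ _
  have hy' : dist (pt z (p + 3)) z = 1 := dist_pt _ _
  have e1 : 2 * z - pt z p = pt z (p + 3) := (pt_three z p).symm
  have e2 : 2 * z - pt z (p + 3) = pt z p := by rw [pt_three]; ring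
  -- the partner
  obtain ⟨w, hw, hxw⟩ := hact x
  have hxp : x ∉ T (pt z p) := fun h1 => hxA (hp1 h1)
  have hxp' : x ∉ T (pt z (p + 3)) := fun h1 => hxB (hp2 h1)
  have hwy : w ≠ pt z p := fun h1 => hxp (h1 ▸ hxw)
  have hwy' : w ≠ pt z (p + 3) := fun h1 => hxp' (h1 ▸ hxw)
  have hsum : w + pt z p ≠ 2 * z := by
    intro h1
    apply hwy'
    rw [← e1]; linear_combination h1
  have hsum' : w + pt z (p + 3) ≠ 2 * z := by
    intro h1
    apply hwy
    rw [← e2]; linear_combination h1
  rcases hdich hsub1 hp1 hsA with hP | hP <;> rcases hdich hsub2 hp2 hsB with hQ | hQ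
  · exact hpO ⟨hP, hQ⟩
  · -- the change is at `p + 3`, the letter at `p` is exact
    refine h.gap3 (y := pt z (p + 3)) (v := w) (x := x) (Q := A3 \ {s}) hy'
      (by rw [hQ]; omega) (by rw [hQ]; exact hK2) ?_ hw (h.sub w hxw) hwy' hsum'
    rw [e2]
    exact (h.pair_open hA2 hAz hP.subset).mono fun q hq => by rw [← hq]; exact h.sub q
  · refine h.gap3 (y := pt z p) (v := w) (x := x) (Q := B3 \ {s}) hy
      (by rw [hP]; omega) (by rw [hP]; exact hK1) ?_ hw (h.sub w hxw) hwy hsum
    rw [e1]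
    exact (h.pair_open hB2 hBz hQ.subset).mono fun q hq => by rw [← hq]; exact h.sub q
  · have hscale := tendsto_scale.eventually hpτ
    refine h.gap33 (y := pt z p) (v := w) (x := x) (P := A3 \ {s}) (Q := B3 \ {s}) ho' hy
      (by rw [hP]; omega) (by rw [e1, hQ]; omega) (by rw [hP]; exact hK1)
      (by rw [e1, hQ]; exact hK2) ?_ ?_ hw (h.sub w hxw) hwy hsum
    · filter_upwards [hscale] with t ht
      rw [e1, hb_pt]
      have h4 : T (pt z (p + o * (t * (3 / Real.pi)) + 3)) = B3 \ {s} := ht.2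
      have e5 : p + 3 + o * (t * (3 / Real.pi)) = p + o * (t * (3 / Real.pi)) + 3 := by ring
      rw [e5, ← h4]
      exact h.sub _
    · filter_upwards [hscale] with t ht
      rw [hb_pt]
      have h4 : T (pt z (p + o * (t * (3 / Real.pi)))) = A3 \ {s} := ht.1
      rw [← h4]
      exact h.sub _

end Vale.Agent.P032.S5.H46
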