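import Vale.Agent.P032.S5.H529.Ray
import Vale.Agent.P032.S5.H767.Raw

/-!
# P032: static signs in the window after an event

`Ray T z u k τ x`: the colour `x` is carried by the half branch `τ` of `S(y)` at `z`, `y` the point
of `S(z)` at the angle `u + k` (units of 60 degrees).  `tow k1 τ k` says that the ray is towards all
positions `u + s + k`, `0 < s < 1`.  `Irr.win_eq`: two rays of one colour `x` have the same sign at a
position with the colour `x`.  `Irr.win_ne`: rays of two colours `x`, `q` have different signs at a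
position with palette inside `{x, q}`.
-/

open Set Filter Topology Metric

noncomputable section

namespace Vale.Agent.P032.S5.H46

open Vale.Agent.P032.Six Vale.Agent.P032.S5.H767

theorem cr_cis (α β : ℝ) : cr (cis α) (cis β) = Real.sin (β - α) := by
  unfold cr cis
  rw [Complex.exp_ofReal_mul_I_re, Complex.exp_ofReal_mul_I_im, Complex.exp_ofReal_mul_I_re,
    Complex.exp_ofReal_mul_I_im, Real.sin_sub]
  ring

theorem sg_pt (z : ℂ) (a b : ℝ) :
    sg (pt z a) z (pt z b) = Real.sin ((b - a) * (Real.pi / 3)) := by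
  unfold sg
  have e1 : z - pt z a = -cis (a * (Real.pi / 3)) := by unfold pt; ring
  have e2 : z - pt z b = -cis (b * (Real.pi / 3)) := by unfold pt; ring
  have e3 : ∀ v w : ℂ, cr (-v) (-w) = cr v w := by
    intro v w; unfold cr; simp
  rw [e1, e2, e3, cr_cis]
  congr 1; ring

/-- `0 < sin ((s + k - k1) 60)` for `0 < s < 1` -/
def up (k1 k : ℕ) : Bool := decide ((k + 6 - k1) % 6 < 3)

theorem sin_up {k1 k : ℕ} (hk : k1 ≤ k + 6) (h : up k1 k = true) {s : ℝ} (h0 : 0 < s)
    (h1 : s < 1) : 0 < Real.sin ((s + k - k1) * (Real.pi / 3)) := by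
  have h2 : (k + 6 - k1) % 6 < 3 := by simpa [up] using h
  set r := (k + 6 - k1) % 6 with hr
  set q := (k + 6 - k1) / 6 with hq
  have h3 : k + 6 - k1 = 6 * q + r := by omega
  have h4 : ((k + 6 - k1 : ℕ) : ℝ) = k + 6 - k1 := by
    rw [Nat.cast_sub hk]; push_cast; ring
  have h5 : (k : ℝ) + 6 - k1 = 6 * q + r := by
    rw [← h4, h3]; push_cast; ring
  have e : (s + k - k1) * (Real.pi / 3) =
      (s + r) * (Real.pi / 3) + ((q : ℤ) - 1 : ℤ) * (2 * Real.pi) := by
    push_cast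
    have : (s + k - k1 : ℝ) = s + r + 6 * (q - 1) := by linarith
    rw [this]; ring
  rw [e, Real.sin_add_int_mul_two_pi]
  have hr2 : (r : ℝ) ≤ 2 := by exact_mod_cast (by omega : r ≤ 2)
  have hr0 : (0 : ℝ) ≤ r := Nat.cast_nonneg r
  have hpi := Real.pi_pos
  apply Real.sin_pos_of_pos_of_lt_pi
  · positivity
  · nlinarith

theorem sin_down {k1 k : ℕ} (hk : k1 ≤ k + 6) (h : up k1 k = false) {s : ℝ} (h0 : 0 < s)
    (h1 : s < 1) : Real.sin ((s + k - k1) * (Real.pi / 3)) < 0 := by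
  have h2 : ¬ (k + 6 - k1) % 6 < 3 := by simpa [up] using h
  have hk' : k1 ≤ (k + 3) + 6 := by omega
  have h3 : up k1 (k + 3) = true := by
    unfold up
    rw [decide_eq_true_iff]
    omega
  have h4 := sin_up hk' h3 h0 h1
  have e : (s + ((k + 3 : ℕ) : ℝ) - k1) * (Real.pi / 3) =
      (s + k - k1) * (Real.pi / 3) + Real.pi := by
    push_cast; ring
  rw [e, Real.sin_add_pi] at h4
  linarith

/-- the ray of colour `x` at the position `u + k`, direction `-I τ (y - z)` -/
def Ray {n : ℕ} (T : ℂ → Set (Fin n)) (z : ℂ) (u : ℝ) (k : ℕ) (τ : Bool) (x : Fin n) : Prop :=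
  ∀ᶠ t : ℝ in 𝓝[>] 0, x ∈ T (hb (pt z (u + k)) z (if τ then 1 else -1) t)

/-- the ray at the position `k1` is towards the positions `k + s` -/
def tow (k1 : ℕ) (τ : Bool) (k : ℕ) : Bool := (up k1 k) != τ

variable {n : ℕ} {U : Fin n → Set ℂ} {T : ℂ → Set (Fin n)}

theorem tow_sg {k1 k : ℕ} {τ : Bool} (hk : k1 ≤ k + 6) {z : ℂ} {u s : ℝ} (h0 : 0 < s)
    (h1 : s < 1) :
    (tow k1 τ k = true → (if τ then (1 : ℝ) else -1) * sg (pt z (u + k1)) z (pt z (u + s + k)) < 0) ∧
    (tow k1 τ k = false →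
      0 < (if τ then (1 : ℝ) else -1) * sg (pt z (u + k1)) z (pt z (u + s + k))) := by
  have e : sg (pt z (u + k1)) z (pt z (u + s + k)) =
      Real.sin ((s + k - k1) * (Real.pi / 3)) := by
    rw [sg_pt]; congr 1; ring
  rw [e]
  have hu : up k1 k = true ∨ up k1 k = false := by
    cases up k1 k
    · exact Or.inr rfl
    · exact Or.inl rfl
  rcases hu with hu | hu
  · have hp := sin_up hk hu h0 h1
    cases τ
    · simp only [tow, hu]
      refine ⟨fun _ => ?_, fun hc => ?_⟩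
      · simp; linarith
      · exact absurd hc (by decide)
    · simp only [tow, hu]
      refine ⟨fun hc => ?_, fun _ => ?_⟩
      · exact absurd hc (by decide)
      · simp; linarith
  · have hp := sin_down hk hu h0 h1
    cases τ
    · simp only [tow, hu]
      refine ⟨fun hc => ?_, fun _ => ?_⟩
      · exact absurd hc (by decide)
      · simp; linarith
    · simp only [tow, hu]
      refine ⟨fun _ => ?_, fun hc => ?_⟩
      · simp; linarith
      · exact absurd hc (by decide)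

/-- **Two rays of one colour have the same sign at every position with this colour.** -/
theorem win_eq (h : Irr U T) {z : ℂ} {u s : ℝ} {k1 k2 k : ℕ} {τ1 τ2 : Bool} {x : Fin n}
    (hk1 : k1 ≤ k + 6) (hk2 : k2 ≤ k + 6) (r1 : Ray T z u k1 τ1 x) (r2 : Ray T z u k2 τ2 x)
    (h0 : 0 < s) (h1 : s < 1) (hx : x ∈ Pal U (pt z (u + s + k))) :
    tow k1 τ1 k = tow k2 τ2 k := by
  have hv : dist (pt z (u + s + k)) z = 1 := dist_pt _ _
  obtain ⟨a1, b1⟩ := tow_sg (τ := τ1) hk1 (z := z) (u := u) h0 h1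
  obtain ⟨a2, b2⟩ := tow_sg (τ := τ2) hk2 (z := z) (u := u) h0 h1
  cases ht1 : tow k1 τ1 k <;> cases ht2 : tow k2 τ2 k
  · rfl
  · exact (h.branch_opp hv hx r2 r1 (a2 ht2) (b1 ht1)).elim
  · exact (h.branch_opp hv hx r1 r2 (a1 ht1) (b2 ht2)).elim
  · rfl

/-- **Rays of two colours have different signs at every position with a palette inside them.** -/
theorem win_ne (h : Irr U T) {z : ℂ} {u s : ℝ} {k1 k2 k : ℕ} {τ1 τ2 : Bool} {x q : Fin n}
    (hk1 : k1 ≤ k + 6) (hk2 : k2 ≤ k + 6) (r1 : Ray T z u k1 τ1 x) (r2 : Ray T z u k2 τ2 q)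
    (h0 : 0 < s) (h1 : s < 1) (hx : T (pt z (u + s + k)) ⊆ {x, q}) :
    tow k1 τ1 k ≠ tow k2 τ2 k := by
  have hv : dist (pt z (u + s + k)) z = 1 := dist_pt _ _
  obtain ⟨a1, b1⟩ := tow_sg (τ := τ1) hk1 (z := z) (u := u) h0 h1
  obtain ⟨a2, b2⟩ := tow_sg (τ := τ2) hk2 (z := z) (u := u) h0 h1
  intro hne
  cases ht1 : tow k1 τ1 k
  · have ht2 : tow k2 τ2 k = false := by rw [← hne, ht1]
    obtain ⟨t0, hg, hg1⟩ := h.branch_cur r1 (hb_out hv (b1 ht1))
    obtain ⟨t1, hg', hg1'⟩ := h.branch_cur r2 (hb_out hv (b2 ht2))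
    rw [dist_comm] at hg1 hg1'
    exact h.curve_pair_in hv hg hg' hx hg1 hg1'
  · have ht2 : tow k2 τ2 k = true := by rw [← hne, ht1]
    obtain ⟨t0, hg, hg1⟩ := h.branch_cur r1 (hb_in hv (a1 ht1))
    obtain ⟨t1, hg', hg1'⟩ := h.branch_cur r2 (hb_in hv (a2 ht2))
    rw [dist_comm] at hg1 hg1'
    exact h.curve_pair_out hv hg hg' hx hg1 hg1'

/-- **Rays from one-sided letters.**  `τ = true`: the letter `Q` of the antipode is exact on the
times after `u`; `τ = false`: before `u`. -/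
theorem ray_of (h : Irr U T) {z : ℂ} {u : ℝ} {k : ℕ} {τ : Bool} {x : Fin n} {Q : Set (Fin n)}
    (h3 : (T (pt z (u + k))).ncard ≤ 3)
    (hK : ∀ i ∈ T z, i ∈ T (pt z (u + k)) ∨ i ∈ Q ∨ i = x)
    (hQ : ∀ᶠ t : ℝ in 𝓝[>] 0, Q ⊆ T (pt z (u + (if τ then 1 else -1) * t + (k + 3 : ℕ)))) :
    Ray T z u k τ x := by
  set o : ℝ := if τ then 1 else -1 with ho
  have ho' : o = 1 ∨ o = -1 := by
    rw [ho]; cases τ
    · exact Or.inr rfl
    · exact Or.inl rfl
  have hy : dist (pt z (u + k)) z = 1 := dist_pt _ _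
  have e1 : 2 * z - pt z (u + k) = pt z (u + k + 3) := (pt_three z (u + k)).symm
  have hy' : dist (2 * z - pt z (u + k)) z = 1 := by rw [e1]; exact dist_pt _ _
  refine h.branch_mem ho' hy h3 hK ?_
  refine Irr.hb_ev (P := fun q => Q ⊆ Pal U q) ho' hy' ?_
  have hpi := Real.pi_pos
  have ht : Tendsto (fun t : ℝ => t * (3 / Real.pi)) (𝓝[>] 0) (𝓝[>] 0) := by
    refine tendsto_nhdsWithin_iff.2 ⟨?_, ?_⟩
    · have hc : Continuous fun t : ℝ => t * (3 / Real.pi) := by fun_prop
      have := hc.tendsto 0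
      rw [zero_mul] at this
      exact this.mono_left nhdsWithin_le_nhds
    · filter_upwards [self_mem_nhdsWithin] with t ht
      have : (0 : ℝ) < t := ht
      show (0 : ℝ) < t * (3 / Real.pi)
      positivity
  filter_upwards [ht.eventually hQ] with t h4
  have e2 : hb z (2 * z - pt z (u + k)) o t = pt z (u + o * (t * (3 / Real.pi)) + (k + 3 : ℕ)) := by
    rw [e1]
    unfold hb pt
    have e3 : (u + o * (t * (3 / Real.pi)) + ((k + 3 : ℕ) : ℝ)) * (Real.pi / 3) =
        (u + k + 3) * (Real.pi / 3) + o * t := by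
      push_cast
      field_simp
      ring
    rw [e3, H767.cis_add]; ring
  show Q ⊆ Pal U (hb z (2 * z - pt z (u + k)) o t)
  rw [e2]
  exact h4.trans (h.sub _)

end Vale.Agent.P032.S5.H46
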